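import Crest.Agent.R163.Q3.D.S1.P1_0
import Crest.Agent.R163.Q3.D.S1.P1_1

set_option autoImplicit false
set_option maxRecDepth 100000
set_option linter.all false
set_option Elab.async false

namespace Crest.Agent.R163.S1

theorem o1_7 : Ok par f7 Box3.unit C1 :=
  (Ok.part 107839786668602557680925760057566521243043197763381406133501164552192 p1_7_5 (Ok.split 0 (Ok.part 621559599129123386023743568853013332039 p1_7_3 (Ok.split 1 p1_7_2 (Ok.part 25387452759337677409484800 p1_7_0 p1_7_1))) p1_7_4))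
theorem o1_6 : Ok par f6 Box3.unit C1 :=
  (Ok.part 107839786668189033902241535068956467494057069205182974159278871445506 p1_6_18 (Ok.split 1 (Ok.part 633825300114168743944685387777 p1_6_16 (Ok.split 0 (Ok.part 130381357452612810915313078210755158867967 p1_6_2 (Ok.split 1 p1_6_0 p1_6_1)) (Ok.part 174214369811489856899408190229446907658241 p1_6_15 (Ok.split 1 (Ok.part 13011728441490259460564713471 p1_6_7 (Ok.split 0 (Ok.part 134610974 p1_6_5 (Ok.split 1 p1_6_3 p1_6_4)) p1_6_6)) (Ok.part 2535301131980991897888245166080 p1_6_14 (Ok.split 0 (Ok.part 3377699720527880 p1_6_12 (Ok.split 1 p1_6_11 (Ok.part 2251798291171329 p1_6_10 (Ok.split 0 p1_6_8 p1_6_9)))) p1_6_13)))))) p1_6_17))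
theorem o1_5 : Ok par f5 Box3.unit C1 :=
  p1_5_0
theorem o1_4 : Ok par f4 Box3.unit C1 :=
  (Ok.part 53919893478699139557375834194671365314202564671670959392147074187199 p1_4_10 (Ok.split 1 p1_4_9 (Ok.part 4588886545313824771 p1_4_8 (Ok.split 1 (Ok.part 2495205299795787770 p1_4_2 (Ok.split 1 p1_4_0 p1_4_1)) (Ok.part 1540019966331326730 p1_4_7 (Ok.split 0 (Ok.part 18691707568118 p1_4_5 (Ok.split 1 p1_4_3 p1_4_4)) p1_4_6))))))
theorem o1_3 : Ok par f3 Box3.unit C1 :=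
  p1_3_0
theorem o1_2 : Ok par f2 Box3.unit C1 :=
  p1_2_0
theorem o1_1 : Ok par f1 Box3.unit C1 :=
  p1_1_0
theorem o1_0 : Ok par f0 Box3.unit C1 :=
  (Ok.part 53972343785818387707327611199271045588628275973597029267957644001274 p1_0_2 (Ok.split 0 p1_0_0 p1_0_1))

theorem pt1 : PtAll par C1 :=
  PtAll.of_okD hw (OkD.cover [f0.dom,f1.dom,f2.dom,f3.dom,f4.dom,f5.dom,f6.dom,f7.dom]
    (.split 0 (.split 0 (.leaf 0) (.split 1 (.leaf 1) (.leaf 2))) (.split 1 (.split 0 (.leaf 3) (.leaf 4)) (.split 0 (.leaf 5) (.split 1 (.leaf 6) (.leaf 7)))))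
    (by decide +kernel)
    (List.forall_mem_cons.2 ⟨OkD.of_ok o1_0, (List.forall_mem_cons.2 ⟨OkD.of_ok o1_1, (List.forall_mem_cons.2 ⟨OkD.of_ok o1_2, (List.forall_mem_cons.2 ⟨OkD.of_ok o1_3, (List.forall_mem_cons.2 ⟨OkD.of_ok o1_4, (List.forall_mem_cons.2 ⟨OkD.of_ok o1_5, (List.forall_mem_cons.2 ⟨OkD.of_ok o1_6, (List.forall_mem_cons.2 ⟨OkD.of_ok o1_7, (fun _ h => nomatch h)⟩)⟩)⟩)⟩)⟩)⟩)⟩)⟩))

end Crest.Agent.R163.S1
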